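import Mathlib
import Vale.Agent.Lib.P048.CycleWindow

namespace Vale.Agent.Results.P048.A_CycleWindow

open Vale.Agent.Lib.P048

/-- Every graph on at least `(m - 1) * (n - 1) + 1` vertices with independence number less than
`n` contains a cycle whose length lies in the window from `m` to `m + 2 * n - 4`. -/
theorem result (V : Type) [Fintype V] (G : SimpleGraph V) (m n : ℕ) (hm : 3 ≤ m) (hn : 2 ≤ n)
    (hcard : (m - 1) * (n - 1) + 1 ≤ Fintype.card V) (hα : G.indepNum < n) :
    ∃ (v : V) (p : G.Walk v v), p.IsCycle ∧ m ≤ p.length ∧ p.length ≤ m + 2 * n - 4 := by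
  have hα' : ∀ s : Finset V, G.IsIndepSet (s : Set V) → s.card ≤ n - 1 := by
    intro s hs
    have := hs.card_le_indepNum
    omega
  obtain ⟨c, l, h1, h2, hc⟩ := exists_cycle_window G hm (Finset.univ : Finset V)
    (by rw [Finset.card_univ]; omega) hα'
  obtain ⟨v, p, hp, hlen⟩ := hc.exists_walk (by omega)
  exact ⟨v, p, hp, by omega, by omega⟩

end Vale.Agent.Results.P048.A_CycleWindow
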